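import Mathlib

namespace Vale.Agent.Lib.P028

open MeasureTheory Finset Metric

section abstract

variable {Ω : Type*} [MeasurableSpace Ω] (μ : Measure Ω) [IsProbabilityMeasure μ]

/-- counting function of the events `A n`, `n ∈ [n₀, Q)` -/
noncomputable def cnt (A : ℕ → Set Ω) (n₀ Q : ℕ) (ω : Ω) : ℝ :=
  ∑ n ∈ Ico n₀ Q, (A n).indicator (fun _ => (1 : ℝ)) ω

lemma cnt_succ (A : ℕ → Set Ω) {n₀ Q : ℕ} (h : n₀ ≤ Q) (ω : Ω) :
    cnt A n₀ (Q + 1) ω = cnt A n₀ Q ω + (A Q).indicator (fun _ => (1 : ℝ)) ω := by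
  unfold cnt
  rw [Finset.sum_Ico_succ_top h]

lemma integrable_ind (A : ℕ → Set Ω) (hA : ∀ n, MeasurableSet (A n)) (n : ℕ) :
    Integrable ((A n).indicator (fun _ => (1 : ℝ))) μ :=
  (integrable_const (1 : ℝ)).indicator (hA n)

lemma integrable_ind_mul (A : ℕ → Set Ω) (hA : ∀ n, MeasurableSet (A n)) (m n : ℕ) :
    Integrable (fun ω => (A m).indicator (fun _ => (1 : ℝ)) ω *
      (A n).indicator (fun _ => (1 : ℝ)) ω) μ := by
  have : (fun ω => (A m).indicator (fun _ => (1 : ℝ)) ω * (A n).indicator (fun _ => (1 : ℝ)) ω)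
      = (A m ∩ A n).indicator (fun _ => (1 : ℝ)) := by
    ext ω
    by_cases h1 : ω ∈ A m <;> by_cases h2 : ω ∈ A n <;> simp [h1, h2]
  rw [this]
  exact (integrable_const (1 : ℝ)).indicator ((hA m).inter (hA n))

lemma integral_ind_mul (A : ℕ → Set Ω) (hA : ∀ n, MeasurableSet (A n)) (m n : ℕ) :
    ∫ ω, (A m).indicator (fun _ => (1 : ℝ)) ω * (A n).indicator (fun _ => (1 : ℝ)) ω ∂μ
      = μ.real (A m ∩ A n) := by
  have : (fun ω => (A m).indicator (fun _ => (1 : ℝ)) ω * (A n).indicator (fun _ => (1 : ℝ)) ω)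
      = (A m ∩ A n).indicator (fun _ => (1 : ℝ)) := by
    ext ω
    by_cases h1 : ω ∈ A m <;> by_cases h2 : ω ∈ A n <;> simp [h1, h2]
  rw [this, integral_indicator ((hA m).inter (hA n))]
  simp

lemma integral_ind (A : ℕ → Set Ω) (hA : ∀ n, MeasurableSet (A n)) (n : ℕ) :
    ∫ ω, (A n).indicator (fun _ => (1 : ℝ)) ω ∂μ = μ.real (A n) := by
  rw [integral_indicator (hA n)]
  simp

lemma integrable_cnt (A : ℕ → Set Ω) (hA : ∀ n, MeasurableSet (A n)) (n₀ Q : ℕ) :
    Integrable (cnt A n₀ Q) μ := by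
  unfold cnt
  exact integrable_finsetSum _ (fun n _ => integrable_ind μ A hA n)

lemma integral_cnt (A : ℕ → Set Ω) (hA : ∀ n, MeasurableSet (A n)) (n₀ Q : ℕ) :
    ∫ ω, cnt A n₀ Q ω ∂μ = ∑ n ∈ Ico n₀ Q, μ.real (A n) := by
  unfold cnt
  rw [integral_finsetSum _ (fun n _ => integrable_ind μ A hA n)]
  exact Finset.sum_congr rfl (fun n _ => integral_ind μ A hA n)

lemma integrable_cnt_mul_ind (A : ℕ → Set Ω) (hA : ∀ n, MeasurableSet (A n)) (n₀ Q n : ℕ) :
    Integrable (fun ω => cnt A n₀ Q ω * (A n).indicator (fun _ => (1 : ℝ)) ω) μ := by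
  unfold cnt
  simp_rw [Finset.sum_mul]
  exact integrable_finsetSum _ (fun m _ => integrable_ind_mul μ A hA m n)

lemma integral_cnt_mul_ind (A : ℕ → Set Ω) (hA : ∀ n, MeasurableSet (A n)) (n₀ Q n : ℕ) :
    ∫ ω, cnt A n₀ Q ω * (A n).indicator (fun _ => (1 : ℝ)) ω ∂μ
      = ∑ m ∈ Ico n₀ Q, μ.real (A m ∩ A n) := by
  unfold cnt
  simp_rw [Finset.sum_mul]
  rw [integral_finsetSum _ (fun m _ => integrable_ind_mul μ A hA m n)]
  exact Finset.sum_congr rfl (fun m _ => integral_ind_mul μ A hA m n)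

lemma integrable_cnt_sq (A : ℕ → Set Ω) (hA : ∀ n, MeasurableSet (A n)) (n₀ Q : ℕ) :
    Integrable (fun ω => cnt A n₀ Q ω ^ 2) μ := by
  have : (fun ω => cnt A n₀ Q ω ^ 2) =
      fun ω => ∑ n ∈ Ico n₀ Q, cnt A n₀ Q ω * (A n).indicator (fun _ => (1 : ℝ)) ω := by
    ext ω
    rw [sq, ← Finset.mul_sum]
    rfl
  rw [this]
  exact integrable_finsetSum _ (fun n _ => integrable_cnt_mul_ind μ A hA n₀ Q n)

/-- second moment bound -/
lemma second_moment (A : ℕ → Set Ω) (hA : ∀ n, MeasurableSet (A n)) (ε : ℕ → ℕ → ℝ)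
    (hε0 : ∀ m n, 0 ≤ ε m n) (K : ℝ) (hK : 0 ≤ K)
    (hpair : ∀ m n, m < n → μ.real (A m ∩ A n) ≤ μ.real (A m) * μ.real (A n) + ε m n)
    (hsum : ∀ n, ∑ m ∈ range n, ε m n ≤ K * μ.real (A n)) (n₀ : ℕ) :
    ∀ Q, n₀ ≤ Q → ∫ ω, cnt A n₀ Q ω ^ 2 ∂μ ≤
      (∑ n ∈ Ico n₀ Q, μ.real (A n)) ^ 2 + (1 + 2 * K) * ∑ n ∈ Ico n₀ Q, μ.real (A n) := by
  intro Q hQ
  induction Q, hQ using Nat.le_induction with
  | base => simp [cnt]
  | succ Q hQ ih =>
    have e1 : ∀ ω, cnt A n₀ (Q + 1) ω ^ 2 = cnt A n₀ Q ω ^ 2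
        + 2 * (cnt A n₀ Q ω * (A Q).indicator (fun _ => (1 : ℝ)) ω)
        + (A Q).indicator (fun _ => (1 : ℝ)) ω := by
      intro ω
      rw [cnt_succ A hQ]
      by_cases h : ω ∈ A Q <;> simp [h] <;> ring
    simp_rw [e1]
    have i1 := integrable_cnt_sq μ A hA n₀ Q
    have i2 : Integrable (fun ω => 2 * (cnt A n₀ Q ω * (A Q).indicator (fun _ => (1 : ℝ)) ω)) μ :=
      (integrable_cnt_mul_ind μ A hA n₀ Q Q).const_mul 2
    have i3 := integrable_ind μ A hA Q
    have i12 : Integrable (fun ω => cnt A n₀ Q ω ^ 2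
        + 2 * (cnt A n₀ Q ω * (A Q).indicator (fun _ => (1 : ℝ)) ω)) μ := i1.add i2
    rw [integral_add i12 i3, integral_add i1 i2,
      integral_const_mul, integral_cnt_mul_ind μ A hA, integral_ind μ A hA,
      Finset.sum_Ico_succ_top hQ]
    set M := ∑ n ∈ Ico n₀ Q, μ.real (A n) with hM
    set p := μ.real (A Q) with hp
    have hp0 : 0 ≤ p := measureReal_nonneg
    have h2 : ∑ m ∈ Ico n₀ Q, μ.real (A m ∩ A Q) ≤ M * p + K * p := by
      calc ∑ m ∈ Ico n₀ Q, μ.real (A m ∩ A Q)
          ≤ ∑ m ∈ Ico n₀ Q, (μ.real (A m) * p + ε m Q) :=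
            Finset.sum_le_sum (fun m hm => hpair m Q (Finset.mem_Ico.mp hm).2)
        _ = M * p + ∑ m ∈ Ico n₀ Q, ε m Q := by
            rw [Finset.sum_add_distrib, ← Finset.sum_mul]
        _ ≤ M * p + ∑ m ∈ range Q, ε m Q := by
            have : ∑ m ∈ Ico n₀ Q, ε m Q ≤ ∑ m ∈ range Q, ε m Q :=
              Finset.sum_le_sum_of_subset_of_nonneg
                (fun m hm => Finset.mem_range.mpr (Finset.mem_Ico.mp hm).2)
                (fun m _ _ => hε0 m Q)
            linarith
        _ ≤ M * p + K * p := by gcongr; exact hsum Q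
    nlinarith [sq_nonneg p]

/-- A Chebyshev (second moment) form of the divergence Borel-Cantelli lemma. -/
theorem ae_frequently (A : ℕ → Set Ω) (hA : ∀ n, MeasurableSet (A n)) (ε : ℕ → ℕ → ℝ)
    (hε0 : ∀ m n, 0 ≤ ε m n) (K : ℝ) (hK : 0 ≤ K)
    (hpair : ∀ m n, m < n → μ.real (A m ∩ A n) ≤ μ.real (A m) * μ.real (A n) + ε m n)
    (hsum : ∀ n, ∑ m ∈ range n, ε m n ≤ K * μ.real (A n))
    (hdiv : ¬ Summable (fun n => μ.real (A n))) :
    ∀ᵐ ω ∂μ, ∀ n₀, ∃ n, n₀ ≤ n ∧ ω ∈ A n := by
  rw [ae_all_iff]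
  intro n₀
  -- the bad set
  set Z : Set Ω := {ω | ∀ n, n₀ ≤ n → ω ∉ A n} with hZ
  have hZm : MeasurableSet Z := by
    have : Z = ⋂ n, ⋂ (_ : n₀ ≤ n), (A n)ᶜ := by
      ext ω; simp [hZ]
    rw [this]
    exact MeasurableSet.iInter (fun n => MeasurableSet.iInter (fun _ => (hA n).compl))
  have hmain : ∀ Q, n₀ ≤ Q → μ.real Z * (∑ n ∈ Ico n₀ Q, μ.real (A n)) ^ 2 ≤
      (1 + 2 * K) * ∑ n ∈ Ico n₀ Q, μ.real (A n) := by
    intro Q hQ
    set M := ∑ n ∈ Ico n₀ Q, μ.real (A n) with hM
    have h2 := second_moment μ A hA ε hε0 K hK hpair hsum n₀ Q hQ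
    rw [← hM] at h2
    have i1 := integrable_cnt_sq μ A hA n₀ Q
    have i2 := integrable_cnt μ A hA n₀ Q
    have i3 : Integrable (fun ω => (cnt A n₀ Q ω - M) ^ 2) μ := by
      have : (fun ω => (cnt A n₀ Q ω - M) ^ 2) =
          fun ω => cnt A n₀ Q ω ^ 2 - 2 * M * cnt A n₀ Q ω + M ^ 2 := by
        ext ω; ring
      rw [this]
      exact (i1.sub (i2.const_mul _)).add (integrable_const _)
    have e3 : ∫ ω, (cnt A n₀ Q ω - M) ^ 2 ∂μ = ∫ ω, cnt A n₀ Q ω ^ 2 ∂μ - M ^ 2 := by
      have : (fun ω => (cnt A n₀ Q ω - M) ^ 2) =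
          fun ω => cnt A n₀ Q ω ^ 2 - 2 * M * cnt A n₀ Q ω + M ^ 2 := by
        ext ω; ring
      have i4 : Integrable (fun ω => 2 * M * cnt A n₀ Q ω) μ := i2.const_mul _
      have i5 : Integrable (fun ω => cnt A n₀ Q ω ^ 2 - 2 * M * cnt A n₀ Q ω) μ := i1.sub i4
      rw [this, integral_add i5 (integrable_const _), integral_sub i1 i4, integral_const_mul,
        integral_cnt μ A hA, ← hM]
      simp
      ring
    have e4 : μ.real Z * M ^ 2 ≤ ∫ ω, (cnt A n₀ Q ω - M) ^ 2 ∂μ := by
      have : μ.real Z * M ^ 2 = ∫ ω, Z.indicator (fun _ => M ^ 2) ω ∂μ := by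
        rw [integral_indicator hZm]; simp
      rw [this]
      apply integral_mono ((integrable_const _).indicator hZm) i3
      intro ω
      by_cases hω : ω ∈ Z
      · have : cnt A n₀ Q ω = 0 := by
          unfold cnt
          apply Finset.sum_eq_zero
          intro n hn
          have := hω n (Finset.mem_Ico.mp hn).1
          simp [this]
        simp [hω, this]
      · simp only [hω, not_false_eq_true, Set.indicator_of_notMem]
        positivity
    linarith
  -- the partial sums are unbounded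
  have hunb : ∀ B : ℝ, ∃ Q, n₀ ≤ Q ∧ B < ∑ n ∈ Ico n₀ Q, μ.real (A n) := by
    intro B
    by_contra hcon
    push Not at hcon
    apply hdiv
    rw [← summable_nat_add_iff n₀]
    apply summable_of_sum_range_le (c := B) (fun n => measureReal_nonneg)
    intro k
    have := hcon (n₀ + k) (by omega)
    rw [Finset.sum_Ico_eq_sum_range] at this
    simpa [add_comm] using this
  have hZ0 : μ.real Z = 0 := by
    by_contra hne
    have hpos : 0 < μ.real Z := lt_of_le_of_ne measureReal_nonneg (Ne.symm hne)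
    obtain ⟨Q, hQ, hB⟩ := hunb (max 1 ((1 + 2 * K) / μ.real Z))
    set M := ∑ n ∈ Ico n₀ Q, μ.real (A n) with hM
    have h1 : 1 < M := lt_of_le_of_lt (le_max_left _ _) hB
    have h2 : (1 + 2 * K) / μ.real Z < M := lt_of_le_of_lt (le_max_right _ _) hB
    have h3 := hmain Q hQ
    rw [← hM] at h3
    rw [div_lt_iff₀ hpos] at h2
    nlinarith
  have hZ0' : μ Z = 0 := by
    rwa [measureReal_eq_zero_iff] at hZ0
  have : ∀ᵐ ω ∂μ, ω ∉ Z := measure_eq_zero_iff_ae_notMem.mp hZ0'
  filter_upwards [this] with ω hω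
  simp only [hZ, Set.mem_ofPred_eq, not_forall, not_not] at hω
  obtain ⟨n, hn, h⟩ := hω
  exact ⟨n, hn, h⟩

end abstract


/-- the set of points `x` of the circle with `‖q x - c‖ < r` -/
def EE (c : UnitAddCircle) (q : ℕ) (r : ℝ) : Set UnitAddCircle := {x | ‖q • x - c‖ < r}

lemma EE_eq_preimage (c : UnitAddCircle) (q : ℕ) (r : ℝ) :
    EE c q r = (fun x : UnitAddCircle => q • x) ⁻¹' ball c r := by
  ext x
  simp [EE, mem_ball, dist_eq_norm]

lemma measurableSet_EE (c : UnitAddCircle) (q : ℕ) (r : ℝ) : MeasurableSet (EE c q r) := by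
  rw [EE_eq_preimage]
  exact (continuous_nsmul q).measurable measurableSet_ball

lemma mp_nsmul {q : ℕ} (hq : q ≠ 0) :
    MeasurePreserving (fun x : UnitAddCircle => q • x) volume volume := by
  have := MeasureTheory.Measure.measurePreserving_zsmul (volume : Measure UnitAddCircle) (n := (q : ℤ))
    (by exact_mod_cast hq)
  simpa using this

lemma vol_ball (c : UnitAddCircle) (r : ℝ) :
    (volume : Measure UnitAddCircle).real (ball c r) = max 0 (min 1 (2 * r)) := by
  rw [Measure.real, ← measure_congr AddCircle.closedBall_ae_eq_ball, AddCircle.volume_closedBall,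
    ENNReal.toReal_ofReal']
  exact max_comm _ _

lemma vol_EE (c : UnitAddCircle) {q : ℕ} (hq : q ≠ 0) (r : ℝ) :
    (volume : Measure UnitAddCircle).real (EE c q r) = max 0 (min 1 (2 * r)) := by
  rw [EE_eq_preimage, Measure.real, (mp_nsmul hq).measure_preimage measurableSet_ball.nullMeasurableSet,
    ← Measure.real, vol_ball]

/-- packing bound: the number of points `y + j σ`, `j < q`, in a ball of radius `b`,
where `σ` has order `q`. -/
lemma card_le (σ y : UnitAddCircle) {q : ℕ} (hq : q ≠ 0) (hσ : addOrderOf σ = q) (b : ℝ)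
    (hb : 0 ≤ b) :
    (((range q).filter (fun j => ‖y + j • σ‖ < b)).card : ℝ) ≤ 2 * b * q + 1 := by
  classical
  set J := (range q).filter (fun j => ‖y + j • σ‖ < b) with hJ
  have hq0 : (0 : ℝ) < q := by exact_mod_cast Nat.pos_of_ne_zero hq
  have hfin : IsOfFinAddOrder σ := by
    rw [← addOrderOf_pos_iff, hσ]; exact Nat.pos_of_ne_zero hq
  -- the small balls are pairwise disjoint
  have hdisj : (J : Set ℕ).PairwiseDisjoint (fun j => ball (y + j • σ) (1 / (2 * q))) := by
    intro i hi j hj hij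
    apply ball_disjoint_ball
    have hi' : i < q := Finset.mem_range.mp (Finset.mem_filter.mp hi).1
    have hj' : j < q := Finset.mem_range.mp (Finset.mem_filter.mp hj).1
    set u : UnitAddCircle := ((i : ℤ) - (j : ℤ)) • σ with hu
    have hu0 : u ≠ 0 := by
      intro h0
      have hdvd := (addOrderOf_dvd_iff_zsmul_eq_zero).mpr h0
      rw [hσ] at hdvd
      have : ((i : ℤ) - j) = 0 := by
        apply Int.eq_zero_of_abs_lt_dvd hdvd
        rw [abs_lt]; constructor <;> omega
      apply hij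
      omega
    have hufin : IsOfFinAddOrder u := hfin.zsmul
    have h1 := AddCircle.le_add_order_smul_norm_of_isOfFinAddOrder hufin hu0
    have hord : addOrderOf u ≤ q := by
      apply Nat.le_of_dvd (Nat.pos_of_ne_zero hq)
      rw [← hσ]
      exact addOrderOf_dvd_of_mem_zmultiples (AddSubgroup.zsmul_mem_zmultiples σ _)
    have h2 : (1 : ℝ) ≤ q * ‖u‖ := by
      calc (1 : ℝ) ≤ addOrderOf u • ‖u‖ := h1
        _ = (addOrderOf u : ℝ) * ‖u‖ := by rw [nsmul_eq_mul]
        _ ≤ q * ‖u‖ := by gcongr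
    have h3 : dist (y + i • σ) (y + j • σ) = ‖u‖ := by
      rw [dist_eq_norm, hu, sub_zsmul, natCast_zsmul, natCast_zsmul]
      congr 1
      abel
    rw [h3]
    have : 1 / (2 * (q : ℝ)) + 1 / (2 * q) = 1 / q := by field_simp; norm_num
    rw [this, div_le_iff₀ hq0]
    linarith
  have hsub : (⋃ j ∈ J, ball (y + j • σ) (1 / (2 * q))) ⊆
      ball (0 : UnitAddCircle) (b + 1 / (2 * q)) := by
    intro z hz
    simp only [Set.mem_iUnion] at hz
    obtain ⟨j, hj, hz⟩ := hz
    have hj' : ‖y + j • σ‖ < b := (Finset.mem_filter.mp hj).2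
    rw [mem_ball] at hz ⊢
    calc dist z 0 ≤ dist z (y + j • σ) + dist (y + j • σ) 0 := dist_triangle _ _ _
      _ < 1 / (2 * q) + b := by
          rw [dist_zero_right]
          exact add_lt_add hz hj'
      _ = b + 1 / (2 * q) := add_comm _ _
  have hmeas := measureReal_biUnion_finset (μ := (volume : Measure UnitAddCircle)) hdisj
    (fun j _ => measurableSet_ball)
  have hle := measureReal_mono (μ := (volume : Measure UnitAddCircle)) hsub
  rw [hmeas] at hle
  simp_rw [vol_ball] at hle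
  have hsmall : max 0 (min 1 (2 * (1 / (2 * (q : ℝ))))) = 1 / q := by
    have h1 : 2 * (1 / (2 * (q : ℝ))) = 1 / q := by field_simp
    have h2 : 1 / (q : ℝ) ≤ 1 := by
      rw [div_le_one hq0]; exact_mod_cast Nat.pos_of_ne_zero hq
    rw [h1, min_eq_right h2, max_eq_right (by positivity)]
  rw [hsmall, Finset.sum_const, nsmul_eq_mul] at hle
  have hbig : max 0 (min 1 (2 * (b + 1 / (2 * (q : ℝ))))) ≤ 2 * b + 1 / q := by
    apply max_le (by positivity)
    calc min 1 (2 * (b + 1 / (2 * (q : ℝ)))) ≤ 2 * (b + 1 / (2 * (q : ℝ))) := min_le_right _ _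
      _ = 2 * b + 1 / q := by field_simp
  have := hle.trans hbig
  have h5 : (J.card : ℝ) * (1 / q) * q ≤ (2 * b + 1 / q) * q := by gcongr
  have h6 : (J.card : ℝ) * (1 / q) * q = J.card := by field_simp
  have h7 : (2 * b + 1 / q) * q = 2 * b * q + 1 := by field_simp
  linarith


lemma real_eq_integral (S : Set UnitAddCircle) (hS : MeasurableSet S) :
    (volume : Measure UnitAddCircle).real S = ∫ x, S.indicator (fun _ => (1 : ℝ)) x := by
  rw [integral_indicator hS]; simp

/-- overlap estimate, coprime case -/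
lemma overlap_coprime (c : UnitAddCircle) {m n : ℕ} (hn : n ≠ 0) (hmn : Nat.gcd m n = 1)
    (a b : ℝ) (ha : 0 ≤ a) :
    (volume : Measure UnitAddCircle).real (EE c m a ∩ EE c n b) ≤
      (volume : Measure UnitAddCircle).real (EE c n b) * (2 * a + 1 / n) := by
  classical
  have hn0 : (0 : ℝ) < n := by exact_mod_cast Nat.pos_of_ne_zero hn
  set τ : UnitAddCircle := ((1 / n : ℝ) : UnitAddCircle) with hτ
  have hnτ : n • τ = 0 := by
    rw [hτ, ← AddCircle.coe_nsmul, nsmul_eq_mul]
    have : (n : ℝ) * (1 / n) = 1 := by field_simp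
    rw [this]
    exact AddCircle.coe_period 1
  have hσ : addOrderOf (m • τ) = n := by
    have h := AddCircle.addOrderOf_div_of_gcd_eq_one (p := (1 : ℝ)) (Nat.pos_of_ne_zero hn) hmn
    have e : m • τ = (((m : ℝ) / n * 1 : ℝ) : UnitAddCircle) := by
      rw [hτ, ← AddCircle.coe_nsmul, nsmul_eq_mul]
      congr 1
      ring
    rw [e]; exact h
  -- translates
  set F : ℕ → Set UnitAddCircle := fun j => {x | x + j • τ ∈ EE c m a} with hF
  have hFm : ∀ j, MeasurableSet (F j) := fun j =>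
    (measurable_add_const (j • τ)) (measurableSet_EE c m a)
  have htrans : ∀ j, (volume : Measure UnitAddCircle).real (EE c m a ∩ EE c n b) =
      (volume : Measure UnitAddCircle).real (F j ∩ EE c n b) := by
    intro j
    have h1 : (fun x => x + j • τ) ⁻¹' (EE c m a ∩ EE c n b) = F j ∩ EE c n b := by
      ext x
      simp only [Set.mem_preimage, Set.mem_inter_iff, hF, Set.mem_ofPred_eq]
      have : x + j • τ ∈ EE c n b ↔ x ∈ EE c n b := by
        simp only [EE, Set.mem_ofPred_eq, smul_add]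
        rw [smul_comm n j τ, hnτ, smul_zero, add_zero]
      rw [this]
    rw [← h1, Measure.real, Measure.real, measure_preimage_add_right]
  have hsum : (n : ℝ) * (volume : Measure UnitAddCircle).real (EE c m a ∩ EE c n b) =
      ∑ j ∈ range n, (volume : Measure UnitAddCircle).real (F j ∩ EE c n b) := by
    rw [← Finset.sum_congr rfl (fun j _ => htrans j)]
    simp
  have hint : ∀ j, Integrable ((F j ∩ EE c n b).indicator (fun _ => (1 : ℝ)))
      (volume : Measure UnitAddCircle) := fun j =>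
    (integrable_const (1 : ℝ)).indicator ((hFm j).inter (measurableSet_EE c n b))
  have hbound : ∑ j ∈ range n, (volume : Measure UnitAddCircle).real (F j ∩ EE c n b) ≤
      (2 * a * n + 1) * (volume : Measure UnitAddCircle).real (EE c n b) := by
    simp_rw [real_eq_integral _ ((hFm _).inter (measurableSet_EE c n b)),
      real_eq_integral _ (measurableSet_EE c n b)]
    rw [← integral_finsetSum _ (fun j _ => hint j), ← integral_const_mul]
    apply integral_mono (integrable_finsetSum _ (fun j _ => hint j))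
      (((integrable_const (1 : ℝ)).indicator (measurableSet_EE c n b)).const_mul _)
    intro x
    by_cases hx : x ∈ EE c n b
    · have h1 : ∀ j, (F j ∩ EE c n b).indicator (fun _ => (1 : ℝ)) x
          = if ‖(m • x - c) + j • (m • τ)‖ < a then 1 else 0 := by
        intro j
        have : x ∈ F j ∩ EE c n b ↔ ‖(m • x - c) + j • (m • τ)‖ < a := by
          have e0 : m • (x + j • τ) - c = m • x - c + j • m • τ := by
            rw [smul_add, smul_comm m j τ]; abel
          constructor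
          · intro h
            have h' : ‖m • (x + j • τ) - c‖ < a := h.1
            rwa [e0] at h'
          · intro h
            refine ⟨?_, hx⟩
            change ‖m • (x + j • τ) - c‖ < a
            rwa [e0]
        by_cases h : ‖(m • x - c) + j • (m • τ)‖ < a
        · rw [if_pos h, Set.indicator_of_mem (this.mpr h)]
        · rw [if_neg h, Set.indicator_of_notMem (fun h' => h (this.mp h'))]
      simp only [h1, Set.indicator_of_mem hx, mul_one]
      rw [Finset.sum_ite, Finset.sum_const_zero, add_zero, Finset.sum_const, nsmul_eq_mul, mul_one]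
      exact card_le (m • τ) (m • x - c) hn hσ a ha
    · have h1 : ∀ j, (F j ∩ EE c n b).indicator (fun _ => (1 : ℝ)) x = 0 := by
        intro j
        apply Set.indicator_of_notMem
        exact fun h => hx h.2
      simp [h1, hx]
  rw [← hsum] at hbound
  have h8 : (volume : Measure UnitAddCircle).real (EE c m a ∩ EE c n b) ≤
      ((2 * a * n + 1) * (volume : Measure UnitAddCircle).real (EE c n b)) / n := by
    rw [le_div_iff₀ hn0]; linarith
  calc _ ≤ _ := h8
    _ = _ := by field_simp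

/-- overlap estimate, general case -/
lemma overlap (c : UnitAddCircle) {m n : ℕ} (hm : m ≠ 0) (hn : n ≠ 0) (a b : ℝ) (ha : 0 ≤ a) :
    (volume : Measure UnitAddCircle).real (EE c m a ∩ EE c n b) ≤
      (volume : Measure UnitAddCircle).real (EE c n b) * (2 * a + (Nat.gcd m n : ℝ) / n) := by
  set g := Nat.gcd m n with hg
  have hg0 : g ≠ 0 := Nat.gcd_ne_zero_left hm
  obtain ⟨m₁, hm₁⟩ : g ∣ m := Nat.gcd_dvd_left m n
  obtain ⟨n₁, hn₁⟩ : g ∣ n := Nat.gcd_dvd_right m n
  have hn₁0 : n₁ ≠ 0 := by rintro rfl; simp at hn₁; exact hn hn₁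
  have hcop : Nat.gcd m₁ n₁ = 1 := by
    have := Nat.gcd_mul_left g m₁ n₁
    rw [← hm₁, ← hn₁, ← hg] at this
    exact Nat.eq_of_mul_eq_mul_left (Nat.pos_of_ne_zero hg0) (by rw [← this, mul_one])
  have hpre : ∀ (k k₁ : ℕ) (r : ℝ), k = g * k₁ →
      EE c k r = (fun x : UnitAddCircle => g • x) ⁻¹' EE c k₁ r := by
    intro k k₁ r hk
    ext x
    simp only [EE, Set.mem_ofPred_eq, Set.mem_preimage]
    rw [hk, mul_comm, mul_smul]
  have e1 : EE c m a ∩ EE c n b =
      (fun x : UnitAddCircle => g • x) ⁻¹' (EE c m₁ a ∩ EE c n₁ b) := by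
    rw [hpre m m₁ a hm₁, hpre n n₁ b hn₁, Set.preimage_inter]
  have e2 : (volume : Measure UnitAddCircle).real (EE c m a ∩ EE c n b) =
      (volume : Measure UnitAddCircle).real (EE c m₁ a ∩ EE c n₁ b) := by
    rw [e1, Measure.real, (mp_nsmul hg0).measure_preimage
      ((measurableSet_EE c m₁ a).inter (measurableSet_EE c n₁ b)).nullMeasurableSet, Measure.real]
  have e3 : (volume : Measure UnitAddCircle).real (EE c n b) =
      (volume : Measure UnitAddCircle).real (EE c n₁ b) := by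
    rw [vol_EE c hn, vol_EE c hn₁0]
  have e4 : (g : ℝ) / n = 1 / n₁ := by
    rw [hn₁]
    push_cast
    have : (g : ℝ) ≠ 0 := by exact_mod_cast hg0
    have : (n₁ : ℝ) ≠ 0 := by exact_mod_cast hn₁0
    field_simp
  rw [e2, e3, e4]
  exact overlap_coprime c hn₁0 hcop a b ha


lemma EE_empty (c : UnitAddCircle) (q : ℕ) : EE c q 0 = ∅ := by
  ext x
  simp only [EE, Set.mem_ofPred_eq, Set.mem_empty_iff_false, iff_false, not_lt]
  exact norm_nonneg _

theorem circle_main (c : UnitAddCircle) (ψ : ℕ → ℝ) (h0 : ∀ q, 0 ≤ ψ q) (h12 : ∀ q, ψ q ≤ 1 / 2)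
    (hψ0 : ψ 0 = 0) (C : ℝ) (hC0 : 0 ≤ C)
    (hC : ∀ n, ψ n ≠ 0 →
      ∑ m ∈ (range n).filter (fun m => ψ m ≠ 0), (Nat.gcd m n : ℝ) ≤ C * n)
    (hdiv : ¬ Summable ψ) :
    ∀ᵐ x : UnitAddCircle, ∀ n₀, ∃ n, n₀ ≤ n ∧ x ∈ EE c n (ψ n) := by
  classical
  have : IsProbabilityMeasure (volume : Measure UnitAddCircle) := ⟨UnitAddCircle.measure_univ⟩
  have hvol : ∀ n, (volume : Measure UnitAddCircle).real (EE c n (ψ n)) = 2 * ψ n := by
    intro n
    by_cases hn : n = 0
    · subst hn
      rw [hψ0, EE_empty]; simp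
    · rw [vol_EE c hn, min_eq_right (by linarith [h12 n]), max_eq_right (by linarith [h0 n])]
  apply ae_frequently (volume : Measure UnitAddCircle) (fun n => EE c n (ψ n))
    (fun n => measurableSet_EE c n (ψ n))
    (fun m n => if ψ m ≠ 0 then 2 * ψ n * ((Nat.gcd m n : ℝ) / n) else 0) _ C hC0
  · intro m n hmn
    have hn : n ≠ 0 := by omega
    by_cases hm : ψ m = 0
    · simp only [hm, EE_empty, Set.empty_inter]
      simp
    · have hm0 : m ≠ 0 := by
        rintro rfl; exact hm hψ0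
      have := overlap c hm0 hn (ψ m) (ψ n) (h0 m)
      simp only [hvol] at this ⊢
      rw [if_pos hm]
      linarith
  · intro n
    simp only [hvol]
    rw [← Finset.sum_filter]
    by_cases hn : ψ n = 0
    · simp [hn]
    · have hn0 : n ≠ 0 := by
        rintro rfl; exact hn hψ0
      have hnpos : (0 : ℝ) < n := by exact_mod_cast Nat.pos_of_ne_zero hn0
      have := hC n hn
      calc ∑ m ∈ (range n).filter (fun m => ψ m ≠ 0), 2 * ψ n * ((Nat.gcd m n : ℝ) / n)
          = (2 * ψ n / n) * ∑ m ∈ (range n).filter (fun m => ψ m ≠ 0), (Nat.gcd m n : ℝ) := by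
            rw [Finset.mul_sum]
            apply Finset.sum_congr rfl
            intro m _
            ring
        _ ≤ (2 * ψ n / n) * (C * n) := by
            apply mul_le_mul_of_nonneg_left this
            have := h0 n
            positivity
        _ = C * (2 * ψ n) := by field_simp
  · simp only [hvol]
    intro hs
    apply hdiv
    have := hs.mul_left (1 / 2)
    simpa using this
  · intro m n
    split_ifs
    · have := h0 n
      positivity
    · exact le_rfl

/-- transfer of an almost everywhere statement from the circle to the line -/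
lemma ae_real_of_ae_circle {P : UnitAddCircle → Prop} (h : ∀ᵐ x : UnitAddCircle, P x) :
    ∀ᵐ x : ℝ, P (x : UnitAddCircle) := by
  have h1 : ∀ k : ℤ, ∀ᵐ (x : ℝ) ∂((volume : Measure ℝ).restrict (Set.Ioc (k : ℝ) (k + 1))),
      P (x : UnitAddCircle) :=
    fun k => (UnitAddCircle.measurePreserving_mk (k : ℝ)).quasiMeasurePreserving.ae h
  have h2 := (ae_restrict_iUnion_iff (μ := (volume : Measure ℝ))
    (fun k : ℤ => Set.Ioc (k : ℝ) (k + 1)) (fun x => P (x : UnitAddCircle))).mpr h1
  rwa [iUnion_Ioc_intCast, Measure.restrict_univ] at h2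

lemma norm_coe_eq (t : ℝ) : ‖(t : UnitAddCircle)‖ = |t - round t| := by
  rw [AddCircle.norm_eq]; simp

/-- The gcd-sum criterion on the real line. -/
theorem real_main (γ : ℝ) (ψ : ℕ → ℝ) (h0 : ∀ q, 0 ≤ ψ q) (C : ℝ)
    (hC : ∀ n, ψ n ≠ 0 →
      ∑ m ∈ (range n).filter (fun m => ψ m ≠ 0), (Nat.gcd m n : ℝ) ≤ C * n)
    (hdiv : ¬ Summable ψ) :
    ∀ᵐ x : ℝ, {q : ℕ | 0 < q ∧ |q * x - γ - round (q * x - γ)| < ψ q}.Infinite := by
  classical
  set ψ' : ℕ → ℝ := fun q => if q = 0 then 0 else min (ψ q) (1 / 2) with hψ'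
  have h0' : ∀ q, 0 ≤ ψ' q := by
    intro q
    simp only [hψ']
    split_ifs
    · exact le_rfl
    · exact le_min (h0 q) (by norm_num)
  have h12' : ∀ q, ψ' q ≤ 1 / 2 := by
    intro q
    simp only [hψ']
    split_ifs
    · norm_num
    · exact min_le_right _ _
  have hle : ∀ q, ψ' q ≤ ψ q := by
    intro q
    simp only [hψ']
    split_ifs
    · exact h0 q
    · exact min_le_left _ _
  have hsupp : ∀ q, ψ' q ≠ 0 → ψ q ≠ 0 := by
    intro q hq h
    apply hq
    exact le_antisymm (h ▸ hle q) (h0' q)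
  have hdiv' : ¬ Summable ψ' := by
    intro hs
    apply hdiv
    have ht := hs.tendsto_atTop_zero
    have hev : ∀ᶠ q in Filter.atTop, ψ' q < 1 / 2 :=
      ht.eventually (gt_mem_nhds (by norm_num))
    apply Summable.of_norm_bounded_eventually_nat hs
    filter_upwards [hev, Filter.eventually_gt_atTop 0] with q hq hq0
    have hq0' : q ≠ 0 := by omega
    simp only [hψ', if_neg hq0'] at hq ⊢
    rw [Real.norm_of_nonneg (h0 q)]
    rcases le_total (ψ q) (1 / 2) with h | h
    · rw [min_eq_left h]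
    · rw [min_eq_right h] at hq
      exact absurd hq (lt_irrefl _)
  -- existence of a nonzero value forces `0 ≤ C`
  have hC0 : 0 ≤ max C 0 := le_max_right _ _
  have hC' : ∀ n, ψ' n ≠ 0 →
      ∑ m ∈ (range n).filter (fun m => ψ' m ≠ 0), (Nat.gcd m n : ℝ) ≤ max C 0 * n := by
    intro n hn
    calc ∑ m ∈ (range n).filter (fun m => ψ' m ≠ 0), (Nat.gcd m n : ℝ)
        ≤ ∑ m ∈ (range n).filter (fun m => ψ m ≠ 0), (Nat.gcd m n : ℝ) := by
          apply Finset.sum_le_sum_of_subset_of_nonneg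
          · intro m hm
            rw [Finset.mem_filter] at hm ⊢
            exact ⟨hm.1, hsupp m hm.2⟩
          · intro m _ _
            positivity
      _ ≤ C * n := hC n (hsupp n hn)
      _ ≤ max C 0 * n := by gcongr; exact le_max_left _ _
  have hmain := circle_main (γ : UnitAddCircle) ψ' h0' h12' (by simp [hψ']) (max C 0) hC0 hC' hdiv'
  filter_upwards [ae_real_of_ae_circle hmain] with x hx
  apply Set.infinite_of_forall_exists_gt
  intro a
  obtain ⟨n, hn, hmem⟩ := hx (a + 1)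
  refine ⟨n, ⟨by omega, ?_⟩, by omega⟩
  have h1 : ‖n • (x : UnitAddCircle) - (γ : UnitAddCircle)‖ < ψ' n := hmem
  have h2 : n • (x : UnitAddCircle) - (γ : UnitAddCircle) = ((n * x - γ : ℝ) : UnitAddCircle) := by
    rw [AddCircle.coe_sub, ← nsmul_eq_mul, AddCircle.coe_nsmul]
  rw [h2, norm_coe_eq] at h1
  exact lt_of_lt_of_le h1 (hle n)


/-- Pillai-type bound: `∑_{m < n} gcd(m, n) ≤ d(n) n`. -/
lemma gcd_sum_le (n : ℕ) : ∑ m ∈ range n, Nat.gcd m n ≤ n.divisors.card * n := by
  classical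
  by_cases hn : n = 0
  · subst hn; simp
  have h1 : ∀ m ∈ range n, Nat.gcd m n ≤ ∑ g ∈ n.divisors, if g ∣ m then g else 0 := by
    intro m _
    have hmem : Nat.gcd m n ∈ n.divisors := Nat.mem_divisors.mpr ⟨Nat.gcd_dvd_right m n, hn⟩
    calc Nat.gcd m n = if Nat.gcd m n ∣ m then Nat.gcd m n else 0 := by
          rw [if_pos (Nat.gcd_dvd_left m n)]
      _ ≤ _ := Finset.single_le_sum (f := fun g => if g ∣ m then g else 0)
          (fun g _ => Nat.zero_le _) hmem
  calc ∑ m ∈ range n, Nat.gcd m n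
      ≤ ∑ m ∈ range n, ∑ g ∈ n.divisors, if g ∣ m then g else 0 := Finset.sum_le_sum h1
    _ = ∑ g ∈ n.divisors, ∑ m ∈ range n, if g ∣ m then g else 0 := Finset.sum_comm
    _ ≤ ∑ g ∈ n.divisors, n := by
        apply Finset.sum_le_sum
        intro g hg
        have hgn : g ∣ n := (Nat.mem_divisors.mp hg).1
        have hg0 : 0 < g := Nat.pos_of_mem_divisors hg
        rw [← Finset.sum_filter, Finset.sum_const, smul_eq_mul]
        have hcard : ((range n).filter (fun m => g ∣ m)).card ≤ n / g := by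
          calc ((range n).filter (fun m => g ∣ m)).card ≤ (range (n / g)).card := by
                apply Finset.card_le_card_of_injOn (fun m => m / g)
                · intro m hm
                  have hm' := Finset.mem_filter.mp hm
                  have hlt : m < n := Finset.mem_range.mp hm'.1
                  simp only [Finset.coe_range, Set.mem_Iio]
                  exact Nat.div_lt_div_of_lt_of_dvd hgn hlt
                · intro m hm m' hm' h
                  have h1 := (Finset.mem_filter.mp hm).2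
                  have h2 := (Finset.mem_filter.mp hm').2
                  simp only at h
                  calc m = g * (m / g) := (Nat.mul_div_cancel' h1).symm
                    _ = g * (m' / g) := by rw [h]
                    _ = m' := Nat.mul_div_cancel' h2
            _ = n / g := Finset.card_range _
        calc ((range n).filter (fun m => g ∣ m)).card * g ≤ (n / g) * g := by gcongr
          _ = n := Nat.div_mul_cancel hgn
    _ = n.divisors.card * n := by rw [Finset.sum_const, smul_eq_mul]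

/-- Q1 for functions supported on integers with a bounded number of divisors. -/
theorem bounded_divisors (γ : ℝ) (ψ : ℕ → ℝ) (hψ : ∀ q, 0 ≤ ψ q) (D : ℕ)
    (hD : ∀ q, ψ q ≠ 0 → q.divisors.card ≤ D) (hdiv : ¬ Summable ψ) :
    ∀ᵐ x : ℝ, {q : ℕ | 0 < q ∧ |q * x - γ - round (q * x - γ)| < ψ q}.Infinite := by
  apply real_main γ ψ hψ D _ hdiv
  intro n hn
  calc ∑ m ∈ (range n).filter (fun m => ψ m ≠ 0), (Nat.gcd m n : ℝ)
      ≤ ∑ m ∈ range n, (Nat.gcd m n : ℝ) := by
        apply Finset.sum_le_sum_of_subset_of_nonneg (Finset.filter_subset _ _)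
        intro m _ _
        positivity
    _ = ((∑ m ∈ range n, Nat.gcd m n : ℕ) : ℝ) := by push_cast; rfl
    _ ≤ ((n.divisors.card * n : ℕ) : ℝ) := by exact_mod_cast gcd_sum_le n
    _ ≤ D * n := by
        push_cast
        gcongr
        exact_mod_cast hD n hn

lemma not_summable_of_weighted (ψ : ℕ → ℝ) (hψ : ∀ q, 0 ≤ ψ q)
    (hdiv : ¬ Summable (fun q : ℕ => (Nat.totient q : ℝ) / q * ψ q)) : ¬ Summable ψ := by
  intro hs
  apply hdiv
  apply Summable.of_nonneg_of_le _ _ hs
  · intro q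
    have := hψ q
    positivity
  · intro q
    have h1 : (Nat.totient q : ℝ) / q ≤ 1 := by
      apply div_le_one_of_le₀ _ (by positivity)
      exact_mod_cast Nat.totient_le q
    calc (Nat.totient q : ℝ) / q * ψ q ≤ 1 * ψ q := by gcongr; exact hψ q
      _ = ψ q := one_mul _

end Vale.Agent.Lib.P028
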